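import Vale.Agent.P157.SphFinal

open Filter Topology Vale.Agent.P157

theorem Vale.Agent.Results.P157.Both.result (α : ℝ) (hα : 0 < α) (f : ℝ → ℝ) (hf : Measurable f)
    (hb : ∃ C, ∀ u, |f u| ≤ C) :
    (∃ L : ℝ, Tendsto (meanPressure α isingMeas f) atTop (𝓝 L) ∧
      Tendsto (parisiI α f) atTop (𝓝 (L : EReal))) ∧
    (∃ L : ℝ, Tendsto (meanPressure α sphereMeas f) atTop (𝓝 L) ∧
      Tendsto (parisiS α f) atTop (𝓝 (L : EReal))) := by
  obtain ⟨C, hC⟩ := hb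
  exact ⟨ising hα hf hC, sphere hα hf hC⟩
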