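import Vale.Agent.P157.Final

open Filter Topology Vale.Agent.P157

theorem Vale.Agent.Results.P157.Ising.result (α : ℝ) (hα : 0 < α) (f : ℝ → ℝ) (hf : Measurable f)
    (hb : ∃ C, ∀ u, |f u| ≤ C) :
    ∃ L : ℝ, Tendsto (meanPressure α isingMeas f) atTop (𝓝 L) ∧
      Tendsto (parisiI α f) atTop (𝓝 (L : EReal)) := by
  obtain ⟨C, hC⟩ := hb
  exact ising hα hf hC
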